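import Vale.Agent.P201.Main

theorem Vale.Agent.Results.P201.A_full.result :
    ∃ (G : Type) (_ : Group G), (∀ g : G, IsOfFinOrder g → g = 1) ∧
      ∃ α β : MonoidAlgebra (ZMod 2) G, α ≠ 0 ∧ β ≠ 0 ∧ α * β = 0 :=
  Vale.Agent.P201.main
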